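import Vale.Agent.P105.Crit

open Vale.Agent.P105 MeasureTheory

/-- Arithmetic characterization of the singular and of the absolutely continuous Bernoulli
convolutions, and singularity at the reciprocals of quartic Salem numbers. -/
theorem Vale.Agent.Results.P105.Characterization.result :
    (∀ n k : ℕ, (unitSet n k).Finite ∧ ∀ η ∈ unitSet n k, IsIntegral ℤ η ∧ IsIntegral ℤ η⁻¹) ∧
    (∀ l : ℝ, 1 / 2 < l → l < 1 →
      (IsSingular (bernoulliConv l) ↔ ArithCrit l) ∧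
      ((bernoulliConv l).AbsolutelyContinuous volume ↔ ¬ ArithCrit l)) ∧
    (∀ β : ℝ, IsSalem β → (minpoly ℚ β).natDegree = 4 → IsSingular (bernoulliConv β⁻¹)) ∧
    (∃ l : ℝ, 1 / 2 < l ∧ l < 1 ∧ l ^ 4 - l ^ 3 - l ^ 2 - l + 1 = 0 ∧
      ¬ IsPisot l⁻¹ ∧ IsSingular (bernoulliConv l)) ∧
    (∃ l : ℝ, 1 / 2 < l ∧ l < 1 ∧ l ^ 4 - 2 * l ^ 3 + l ^ 2 - 2 * l + 1 = 0 ∧
      ¬ IsPisot l⁻¹ ∧ IsSingular (bernoulliConv l)) :=
  ⟨fun n k => ⟨unitSet_finite n k, unitSet_unit n k⟩, fun _ h0 h1 => characterization h0 h1,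
    fun _ h hd => singular_of_salem h hd, example_one, example_two⟩
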