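import Vale.Agent.P105.Main

open Vale.Agent.P105

/-- Every quartic Salem number gives a singular Bernoulli convolution; in particular there are
parameters `l ∈ (1/2, 1)` with `1/l` not a Pisot number and singular Bernoulli convolution. -/
theorem Vale.Agent.Results.P105.QuarticSalem.result :
    (∀ β : ℝ, IsSalem β → (minpoly ℚ β).natDegree = 4 → IsSingular (bernoulliConv β⁻¹)) ∧
    (∃ l : ℝ, 1 / 2 < l ∧ l < 1 ∧ l ^ 4 - l ^ 3 - l ^ 2 - l + 1 = 0 ∧
      ¬ IsPisot l⁻¹ ∧ IsSingular (bernoulliConv l)) ∧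
    (∃ l : ℝ, 1 / 2 < l ∧ l < 1 ∧ l ^ 4 - 2 * l ^ 3 + l ^ 2 - 2 * l + 1 = 0 ∧
      ¬ IsPisot l⁻¹ ∧ IsSingular (bernoulliConv l)) :=
  ⟨fun _ h hd => singular_of_salem h hd, example_one, example_two⟩
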